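import Vale.Agent.Lib.P063.Width

namespace Vale.Agent.Lib.P063

open Finset

/-- The edge set of the complete `r`-uniform hypergraph on the vertex set `S`. -/
def cliqueEdges (n r : ℕ) (S : Finset (Fin n)) : Finset (Edge n r) :=
  univ.filter fun e => e.1 ⊆ S

theorem mem_cliqueEdges {n r : ℕ} {S : Finset (Fin n)} {e : Edge n r} :
    e ∈ cliqueEdges n r S ↔ e.1 ⊆ S := by
  unfold cliqueEdges
  rw [mem_filter]
  exact ⟨fun h => h.2, fun h => ⟨mem_univ _, h⟩⟩

theorem cliqueEdges_card (n r : ℕ) (S : Finset (Fin n)) :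
    (cliqueEdges n r S).card = S.card.choose r := by
  rw [← Finset.card_powersetCard]
  apply Finset.card_bij (fun e _ => e.1)
  · intro e he
    rw [mem_powersetCard]
    exact ⟨mem_cliqueEdges.mp he, e.2⟩
  · intro e1 _ e2 _ h
    exact Subtype.ext h
  · intro s hs
    rw [mem_powersetCard] at hs
    exact ⟨⟨s, hs.2⟩, mem_cliqueEdges.mpr hs.1, rfl⟩

theorem mem_cliqueProp {n r k : ℕ} {H : Finset (Edge n r)} :
    H ∈ cliqueProp n r k ↔ ∃ S : Finset (Fin n), S.card = k ∧ cliqueEdges n r S ⊆ H := by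
  unfold cliqueProp
  rw [mem_filter]
  constructor
  · rintro ⟨_, S, hS, h⟩
    exact ⟨S, hS, fun e he => h e (mem_cliqueEdges.mp he)⟩
  · rintro ⟨S, hS, h⟩
    exact ⟨mem_univ _, S, hS, fun e he => h (mem_cliqueEdges.mpr he)⟩

theorem cliqueProp_increasing (n r k : ℕ) : IsIncreasing (cliqueProp n r k) := by
  intro H hH H' hsub
  rw [mem_cliqueProp] at hH ⊢
  obtain ⟨S, hS, h⟩ := hH
  exact ⟨S, hS, h.trans hsub⟩

theorem cliqueProp_isProperty (n r k : ℕ) : IsProperty (cliqueProp n r k) := by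
  intro σ H hH
  rw [mem_cliqueProp] at hH ⊢
  obtain ⟨S, hS, h⟩ := hH
  refine ⟨S.map σ.toEmbedding, by rw [Finset.card_map]; exact hS, ?_⟩
  intro e' he'
  rw [mem_cliqueEdges] at he'
  rw [mem_image]
  refine ⟨permEdge σ⁻¹ e', ?_, ?_⟩
  · apply h
    rw [mem_cliqueEdges]
    intro x hx
    unfold permEdge at hx
    simp only [Finset.mem_map, Equiv.coe_toEmbedding] at hx
    obtain ⟨y, hy, rfl⟩ := hx
    have hy' := he' hy
    simp only [Finset.mem_map, Equiv.coe_toEmbedding] at hy'
    obtain ⟨s, hs, rfl⟩ := hy'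
    simpa using hs
  · apply Subtype.ext
    unfold permEdge
    ext x
    simp only [Finset.mem_map, Equiv.coe_toEmbedding]
    constructor
    · rintro ⟨y, ⟨z, hz, rfl⟩, rfl⟩
      simpa using hz
    · intro hx
      exact ⟨σ⁻¹ x, ⟨x, hx, rfl⟩, by simp⟩

theorem cliqueProp_full (n r k : ℕ) (hk : k ≤ n) : (univ : Finset (Edge n r)) ∈ cliqueProp n r k := by
  rw [mem_cliqueProp]
  have : k ≤ (univ : Finset (Fin n)).card := by simpa using hk
  obtain ⟨S, _, hS⟩ := Finset.exists_subset_card_eq this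
  exact ⟨S, hS, Finset.subset_univ _⟩

theorem cliqueProp_empty (n r k : ℕ) (hr : r ≤ k) : (∅ : Finset (Edge n r)) ∉ cliqueProp n r k := by
  rw [mem_cliqueProp]
  rintro ⟨S, hS, h⟩
  have : r ≤ S.card := by omega
  obtain ⟨e, he, hecard⟩ := Finset.exists_subset_card_eq this
  have hmem : (⟨e, hecard⟩ : Edge n r) ∈ cliqueEdges n r S := mem_cliqueEdges.mpr he
  exact Finset.notMem_empty _ (h hmem)

theorem cliqueProp_nontrivial (n r k : ℕ) (hr : r ≤ k) (hk : k ≤ n) :
    IsNontrivial (cliqueProp n r k) := by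
  constructor
  · intro h
    have := cliqueProp_full n r k hk
    rw [h] at this
    exact Finset.notMem_empty _ this
  · intro h
    apply cliqueProp_empty n r k hr
    rw [h]
    exact mem_univ _

theorem cliqueProp_generated (n r k : ℕ) :
    ∀ H ∈ cliqueProp n r k, ∃ M ∈ cliqueProp n r k, M ⊆ H ∧ M.card ≤ k.choose r := by
  intro H hH
  rw [mem_cliqueProp] at hH
  obtain ⟨S, hS, h⟩ := hH
  refine ⟨cliqueEdges n r S, mem_cliqueProp.mpr ⟨S, hS, subset_refl _⟩, h, ?_⟩
  rw [cliqueEdges_card, hS]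

/-- First moment bound: the probability of containing a complete `r`-graph on `k` vertices
is at most `C(n,k) p^{C(k,r)}`. -/
theorem cliqueProp_mu_le (n r k : ℕ) (p : ℝ) (hp0 : 0 ≤ p) (hp1 : p ≤ 1) :
    mu p (cliqueProp n r k) ≤ (n.choose k : ℝ) * p ^ (k.choose r) := by
  set N := Fintype.card (Edge n r) with hN
  have hw : ∀ H : Finset (Edge n r), 0 ≤ p ^ H.card * (1 - p) ^ (N - H.card) := fun H =>
    mul_nonneg (pow_nonneg hp0 _) (pow_nonneg (by linarith) _)
  have h1 : ∀ H ∈ cliqueProp n r k, p ^ H.card * (1 - p) ^ (N - H.card) ≤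
      ∑ S ∈ powersetCard k (univ : Finset (Fin n)),
        if cliqueEdges n r S ⊆ H then p ^ H.card * (1 - p) ^ (N - H.card) else 0 := by
    intro H hH
    rw [mem_cliqueProp] at hH
    obtain ⟨S, hS, h⟩ := hH
    have hSmem : S ∈ powersetCard k (univ : Finset (Fin n)) := by
      rw [mem_powersetCard]
      exact ⟨Finset.subset_univ _, hS⟩
    calc p ^ H.card * (1 - p) ^ (N - H.card)
        = (if cliqueEdges n r S ⊆ H then p ^ H.card * (1 - p) ^ (N - H.card) else 0) := by
          rw [if_pos h]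
      _ ≤ _ := Finset.single_le_sum (f := fun S =>
          if cliqueEdges n r S ⊆ H then p ^ H.card * (1 - p) ^ (N - H.card) else 0)
          (fun S _ => by split <;> [exact hw H; exact le_refl _]) hSmem
  have h2 : ∀ S : Finset (Fin n), S ∈ powersetCard k (univ : Finset (Fin n)) →
      ∑ H : Finset (Edge n r),
        (if cliqueEdges n r S ⊆ H then p ^ H.card * (1 - p) ^ (N - H.card) else 0)
        = p ^ (k.choose r) := by
    intro S hS
    rw [mem_powersetCard] at hS
    rw [← Finset.sum_filter]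
    have hfil : (univ.filter fun H : Finset (Edge n r) => cliqueEdges n r S ⊆ H)
        = Finset.Icc (cliqueEdges n r S) univ := by
      ext H
      simp [Finset.mem_Icc]
    rw [hfil, sum_superset_weight, cliqueEdges_card, hS.2]
  calc mu p (cliqueProp n r k)
      = ∑ H ∈ cliqueProp n r k, p ^ H.card * (1 - p) ^ (N - H.card) := rfl
    _ ≤ ∑ H ∈ cliqueProp n r k, ∑ S ∈ powersetCard k (univ : Finset (Fin n)),
        if cliqueEdges n r S ⊆ H then p ^ H.card * (1 - p) ^ (N - H.card) else 0 :=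
        Finset.sum_le_sum h1
    _ ≤ ∑ H : Finset (Edge n r), ∑ S ∈ powersetCard k (univ : Finset (Fin n)),
        if cliqueEdges n r S ⊆ H then p ^ H.card * (1 - p) ^ (N - H.card) else 0 :=
        Finset.sum_le_sum_of_subset_of_nonneg (Finset.subset_univ _) (fun H _ _ =>
          Finset.sum_nonneg fun S _ => by split <;> [exact hw H; exact le_refl _])
    _ = ∑ S ∈ powersetCard k (univ : Finset (Fin n)), ∑ H : Finset (Edge n r),
        if cliqueEdges n r S ⊆ H then p ^ H.card * (1 - p) ^ (N - H.card) else 0 :=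
        Finset.sum_comm
    _ = ∑ S ∈ powersetCard k (univ : Finset (Fin n)), p ^ (k.choose r) :=
        Finset.sum_congr rfl h2
    _ = (n.choose k : ℝ) * p ^ (k.choose r) := by
        rw [Finset.sum_const, Finset.card_powersetCard, Finset.card_univ, Fintype.card_fin,
          nsmul_eq_mul]

end Vale.Agent.Lib.P063
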