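import Mathlib

/-!
# Threshold width of hypergraph properties: definitions

Vertices are `Fin n`; an edge is an `r`-element subset of `Fin n`; an `r`-uniform hypergraph
on `Fin n` is a finite set of edges; a family of hypergraphs is a finite set of hypergraphs.
-/

namespace Vale.Agent.Lib.P063

open Finset

/-- An edge of an `r`-uniform hypergraph on the vertex set `Fin n`: an `r`-element subset. -/
abbrev Edge (n r : ℕ) : Type := {e : Finset (Fin n) // e.card = r}

/-- `μ_p(P)`: the probability that the random subset of `E`, in which each element of `E` is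
present independently with probability `p`, lies in the family `P`. -/
noncomputable def mu {E : Type*} [Fintype E] [DecidableEq E] (p : ℝ) (P : Finset (Finset E)) : ℝ :=
  ∑ H ∈ P, p ^ H.card * (1 - p) ^ (Fintype.card E - H.card)

/-- `p_a(P) = inf {p ∈ [0,1] : μ_p(P) ≥ a}`. -/
noncomputable def pcrit {E : Type*} [Fintype E] [DecidableEq E] (a : ℝ)
    (P : Finset (Finset E)) : ℝ :=
  sInf {p : ℝ | 0 ≤ p ∧ p ≤ 1 ∧ a ≤ mu p P}

/-- The threshold width `w_ε(P) = p_{1-ε}(P) - p_ε(P)`. -/
noncomputable def width {E : Type*} [Fintype E] [DecidableEq E] (ε : ℝ)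
    (P : Finset (Finset E)) : ℝ :=
  pcrit (1 - ε) P - pcrit ε P

/-- The image of an edge under a permutation of the vertices. -/
def permEdge {n r : ℕ} (σ : Equiv.Perm (Fin n)) (e : Edge n r) : Edge n r :=
  ⟨e.1.map σ.toEmbedding, by rw [Finset.card_map]; exact e.2⟩

/-- A family of `r`-uniform hypergraphs on `Fin n` is a hypergraph property if it is invariant
under all permutations of the vertices. -/
def IsProperty {n r : ℕ} (P : Finset (Finset (Edge n r))) : Prop :=
  ∀ σ : Equiv.Perm (Fin n), ∀ H ∈ P, H.image (permEdge σ) ∈ P

/-- A family is increasing if adding elements preserves membership. -/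
def IsIncreasing {E : Type*} (P : Finset (Finset E)) : Prop :=
  ∀ H ∈ P, ∀ H' : Finset E, H ⊆ H' → H' ∈ P

/-- A family is nontrivial if it is neither empty nor everything. -/
def IsNontrivial {E : Type*} [Fintype E] [DecidableEq E] (P : Finset (Finset E)) : Prop :=
  P ≠ ∅ ∧ P ≠ univ

/-- The property of containing a complete `r`-uniform hypergraph on some `k` vertices:
some `k`-set `S` of vertices has all its `r`-subsets among the edges. -/
def cliqueProp (n r k : ℕ) : Finset (Finset (Edge n r)) :=
  univ.filter fun H => ∃ S : Finset (Fin n), S.card = k ∧ ∀ e : Edge n r, e.1 ⊆ S → e ∈ H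

end Vale.Agent.Lib.P063
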