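import Vale.Agent.Lib.P063.Clique

namespace Vale.Agent.Lib.P063

open Finset

/-- `k^r ≤ r^r C(k,r)` for `r ≤ k`. -/
theorem pow_le_pow_mul_choose : ∀ r k : ℕ, r ≤ k → k ^ r ≤ r ^ r * k.choose r := by
  intro r
  induction r with
  | zero => intro k _; simp
  | succ r ih =>
    intro k hk
    obtain ⟨k', rfl⟩ : ∃ k', k = k' + 1 := ⟨k - 1, by omega⟩
    have hk' : r ≤ k' := by omega
    have ih' := ih k' hk'
    have hsc : (k' + 1) * k'.choose r = (k' + 1).choose (r + 1) * (r + 1) :=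
      Nat.add_one_mul_choose_eq k' r
    by_cases hr0 : r = 0
    · subst hr0
      simp
    · have hrpos : 0 < r ^ r := Nat.pow_pos (Nat.pos_of_ne_zero hr0)
      have haux : ((k' + 1) * r) ^ r ≤ ((r + 1) * k') ^ r :=
        Nat.pow_le_pow_left (by nlinarith) r
      have h1 : (k' + 1) ^ r * r ^ r ≤ (r + 1) ^ r * (r ^ r * k'.choose r) := by
        calc (k' + 1) ^ r * r ^ r = ((k' + 1) * r) ^ r := (mul_pow _ _ _).symm
          _ ≤ ((r + 1) * k') ^ r := haux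
          _ = (r + 1) ^ r * k' ^ r := mul_pow _ _ _
          _ ≤ (r + 1) ^ r * (r ^ r * k'.choose r) := Nat.mul_le_mul_left _ ih'
      have h2 : (k' + 1) ^ r ≤ (r + 1) ^ r * k'.choose r := by
        have : (k' + 1) ^ r * r ^ r ≤ ((r + 1) ^ r * k'.choose r) * r ^ r := by
          calc (k' + 1) ^ r * r ^ r ≤ (r + 1) ^ r * (r ^ r * k'.choose r) := h1
            _ = ((r + 1) ^ r * k'.choose r) * r ^ r := by ring
        exact Nat.le_of_mul_le_mul_right this hrpos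
      calc (k' + 1) ^ (r + 1) = (k' + 1) ^ r * (k' + 1) := pow_succ _ _
        _ ≤ ((r + 1) ^ r * k'.choose r) * (k' + 1) := Nat.mul_le_mul_right _ h2
        _ = (r + 1) ^ r * ((k' + 1) * k'.choose r) := by ring
        _ = (r + 1) ^ r * ((k' + 1).choose (r + 1) * (r + 1)) := by rw [hsc]
        _ = (r + 1) ^ (r + 1) * (k' + 1).choose (r + 1) := by ring

/-- The choice of the clique size.  For `r ≥ 2` there is `B > 0` such that for every `ε > 0`
there is `n0` such that for every `n ≥ n0` some `k` with `r ≤ k ≤ n` has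
`C(n,k) 2^{-C(k,r)} < ε` and `C(k,r) ≤ B (log n)^{r/(r-1)}`. -/
theorem numerics (r : ℕ) (hr : 2 ≤ r) :
    ∃ B : ℝ, 0 < B ∧ ∀ ε : ℝ, 0 < ε → ∃ n0 : ℕ, ∀ n : ℕ, n0 ≤ n → ∃ k : ℕ, r ≤ k ∧ k ≤ n ∧
      (n.choose k : ℝ) * (1 / 2 : ℝ) ^ (k.choose r) < ε ∧
      (k.choose r : ℝ) ≤ B * (Real.log n) ^ ((r : ℝ) / ((r : ℝ) - 1)) ∧
      0 < Real.log n := by
  have hr1 : (2 : ℝ) ≤ (r : ℝ) := by exact_mod_cast hr
  set s : ℝ := (r : ℝ) - 1 with hs
  have hs1 : 1 ≤ s := by linarith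
  have hs0 : 0 < s := by linarith
  set A : ℝ := 4 * (r : ℝ) ^ r with hA
  have hrr : (1 : ℝ) ≤ (r : ℝ) ^ r := one_le_pow₀ (by linarith)
  have hA4 : 4 ≤ A := by linarith
  have hA0 : 0 < A := by linarith
  refine ⟨2 ^ r * A ^ ((r : ℝ) / s), by positivity, ?_⟩
  intro ε hε
  refine ⟨max 3 (max (⌈1 / ε⌉₊ + 1) (256 * r ^ (2 * r))), ?_⟩
  intro n hn
  have hn3 : 3 ≤ n := le_trans (le_max_left _ _) hn
  have hnε : ⌈1 / ε⌉₊ + 1 ≤ n := le_trans (le_trans (le_max_left _ _) (le_max_right _ _)) hn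
  have hnr : 256 * r ^ (2 * r) ≤ n := le_trans (le_trans (le_max_right _ _) (le_max_right _ _)) hn
  have hn3' : (3 : ℝ) ≤ (n : ℝ) := by exact_mod_cast hn3
  have hnpos : (0 : ℝ) < (n : ℝ) := by linarith
  set L : ℝ := Real.log n with hL
  have hL1 : 1 < L := by
    rw [hL, Real.lt_log_iff_exp_lt hnpos]
    have := Real.exp_one_lt_d9
    linarith
  have hL0 : 0 < L := by linarith
  have hAL : 1 ≤ A * L := by nlinarith
  have hAL0 : 0 < A * L := by linarith
  set x : ℝ := (A * L) ^ (1 / s) with hx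
  have hx1 : 1 ≤ x := Real.one_le_rpow hAL (by positivity)
  have hx0 : 0 < x := by linarith
  set k : ℕ := ⌈x⌉₊ with hk
  have hkx : x ≤ (k : ℝ) := Nat.le_ceil x
  have hkx' : (k : ℝ) < x + 1 := Nat.ceil_lt_add_one hx0.le
  have hk1 : (1 : ℝ) ≤ (k : ℝ) := le_trans hx1 hkx
  have hk2x : (k : ℝ) ≤ 2 * x := by linarith
  have hcast : ((r - 1 : ℕ) : ℝ) = s := by
    rw [Nat.cast_sub (by omega : 1 ≤ r)]
    simp [hs]
  -- x^(r-1) = A L
  have hxpow : x ^ (r - 1) = A * L := by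
    rw [hx, ← Real.rpow_natCast, ← Real.rpow_mul hAL0.le, hcast]
    rw [one_div, inv_mul_cancel₀ hs0.ne', Real.rpow_one]
  have hkpow : A * L ≤ (k : ℝ) ^ (r - 1) := by
    rw [← hxpow]
    exact pow_le_pow_left₀ hx0.le hkx _
  -- (i) r ≤ k
  have hrk : r ≤ k := by
    by_contra hlt
    have hlt' : k ≤ r - 1 := by omega
    have h1 : (k : ℝ) ≤ (r : ℝ) := by exact_mod_cast (by omega : k ≤ r)
    have h2 : (k : ℝ) ^ (r - 1) ≤ (r : ℝ) ^ (r - 1) := pow_le_pow_left₀ (by positivity) h1 _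
    have h3 : (r : ℝ) ^ (r - 1) ≤ (r : ℝ) ^ r :=
      pow_le_pow_right₀ (by linarith) (by omega)
    nlinarith
  have hkpos : 0 < k := by omega
  -- lower bound for C(k,r)
  have hch : 4 * (k : ℝ) * L ≤ (k.choose r : ℝ) := by
    have h1 : ((k ^ r : ℕ) : ℝ) ≤ ((r ^ r * k.choose r : ℕ) : ℝ) := by
      exact_mod_cast pow_le_pow_mul_choose r k hrk
    push_cast at h1
    have h2 : (k : ℝ) ^ r = (k : ℝ) * (k : ℝ) ^ (r - 1) := by
      rw [← pow_succ']
      congr 1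
      omega
    have h3 : (k : ℝ) * (A * L) ≤ (k : ℝ) ^ r := by
      rw [h2]
      exact mul_le_mul_of_nonneg_left hkpow (by positivity)
    have h4 : (r : ℝ) ^ r * (4 * (k : ℝ) * L) ≤ (r : ℝ) ^ r * (k.choose r : ℝ) := by
      calc (r : ℝ) ^ r * (4 * (k : ℝ) * L) = (k : ℝ) * (A * L) := by rw [hA]; ring
        _ ≤ (k : ℝ) ^ r := h3
        _ ≤ _ := h1
    exact le_of_mul_le_mul_left h4 (by positivity)
  refine ⟨k, hrk, ?_, ?_, ?_, hL0⟩
  · -- (ii) k ≤ n
    have h1 : x ≤ A * L := by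
      have := Real.rpow_le_rpow_of_exponent_le hAL (by
        rw [div_le_one hs0]
        exact hs1 : 1 / s ≤ 1)
      rwa [Real.rpow_one] at this
    have hsq : 0 < Real.sqrt n := Real.sqrt_pos.mpr hnpos
    have h2 : L < 2 * Real.sqrt n := by
      have h := Real.log_le_sub_one_of_pos hsq
      rw [Real.log_sqrt hnpos.le] at h
      linarith
    have h3 : (16 : ℝ) * (r : ℝ) ^ r ≤ Real.sqrt n := by
      apply Real.le_sqrt_of_sq_le
      have : ((256 * r ^ (2 * r) : ℕ) : ℝ) ≤ (n : ℝ) := by exact_mod_cast hnr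
      push_cast at this
      calc ((16 : ℝ) * (r : ℝ) ^ r) ^ 2 = 256 * (r : ℝ) ^ (2 * r) := by
            rw [mul_pow, ← pow_mul, mul_comm r 2]
            norm_num
        _ ≤ (n : ℝ) := this
    have h4 : (k : ℝ) < (n : ℝ) := by
      calc (k : ℝ) ≤ 2 * x := hk2x
        _ ≤ 2 * (A * L) := by linarith
        _ = 8 * (r : ℝ) ^ r * L := by rw [hA]; ring
        _ < 8 * (r : ℝ) ^ r * (2 * Real.sqrt n) := by
            apply mul_lt_mul_of_pos_left h2
            positivity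
        _ = (16 * (r : ℝ) ^ r) * Real.sqrt n := by ring
        _ ≤ Real.sqrt n * Real.sqrt n := mul_le_mul_of_nonneg_right h3 hsq.le
        _ = (n : ℝ) := Real.mul_self_sqrt hnpos.le
    exact_mod_cast h4.le
  · -- (iii) first moment
    have hlog2 : (1 / 2 : ℝ) < Real.log 2 := by
      have := Real.log_two_gt_d9
      linarith
    have e1 : (n : ℝ) ^ k = Real.exp ((k : ℝ) * L) := by
      rw [Real.exp_nat_mul, hL, Real.exp_log hnpos]
    have e2 : (1 / 2 : ℝ) ^ (k.choose r) = Real.exp ((k.choose r : ℝ) * (-Real.log 2)) := by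
      rw [Real.exp_nat_mul, Real.exp_neg, Real.exp_log (by norm_num : (0 : ℝ) < 2)]
      norm_num
    have hnk : (n.choose k : ℝ) ≤ (n : ℝ) ^ k := by exact_mod_cast Nat.choose_le_pow n k
    have hεn : 1 / ε < (n : ℝ) := by
      have h1 : 1 / ε ≤ (⌈1 / ε⌉₊ : ℝ) := Nat.le_ceil _
      have h2 : ((⌈1 / ε⌉₊ + 1 : ℕ) : ℝ) ≤ (n : ℝ) := by exact_mod_cast hnε
      push_cast at h2
      linarith
    have hlogε : -L < Real.log ε := by
      have h := Real.log_lt_log (by positivity) hεn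
      rw [one_div, Real.log_inv] at h
      linarith
    have hexp : (k : ℝ) * L + (k.choose r : ℝ) * (-Real.log 2) ≤ -L := by
      have h1 : (k.choose r : ℝ) * Real.log 2 ≥ (4 * (k : ℝ) * L) * (1 / 2) := by
        apply mul_le_mul hch hlog2.le (by norm_num) (by positivity)
      have h2 : L ≤ (k : ℝ) * L := by nlinarith
      nlinarith
    calc (n.choose k : ℝ) * (1 / 2 : ℝ) ^ (k.choose r)
        ≤ (n : ℝ) ^ k * (1 / 2 : ℝ) ^ (k.choose r) :=
          mul_le_mul_of_nonneg_right hnk (by positivity)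
      _ = Real.exp ((k : ℝ) * L + (k.choose r : ℝ) * (-Real.log 2)) := by
          rw [e1, e2, Real.exp_add]
      _ ≤ Real.exp (-L) := Real.exp_le_exp.mpr hexp
      _ < Real.exp (Real.log ε) := Real.exp_lt_exp.mpr hlogε
      _ = ε := Real.exp_log hε
  · -- (iv) upper bound for C(k,r)
    have h1 : (k.choose r : ℝ) ≤ (k : ℝ) ^ r := by exact_mod_cast Nat.choose_le_pow k r
    have h2 : (k : ℝ) ^ r ≤ (2 * x) ^ r := pow_le_pow_left₀ (by positivity) hk2x _
    have h3 : x ^ r = (A * L) ^ ((r : ℝ) / s) := by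
      rw [hx, ← Real.rpow_natCast, ← Real.rpow_mul hAL0.le]
      congr 1
      field_simp
    have h4 : (A * L) ^ ((r : ℝ) / s) = A ^ ((r : ℝ) / s) * L ^ ((r : ℝ) / s) :=
      Real.mul_rpow hA0.le hL0.le
    calc (k.choose r : ℝ) ≤ (2 * x) ^ r := le_trans h1 h2
      _ = 2 ^ r * x ^ r := mul_pow _ _ _
      _ = 2 ^ r * A ^ ((r : ℝ) / s) * L ^ ((r : ℝ) / s) := by rw [h3, h4]; ring

end Vale.Agent.Lib.P063
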