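import Vale.Agent.Lib.P063.Defs

namespace Vale.Agent.Lib.P063

open Finset

section general
variable {E : Type*} [Fintype E] [DecidableEq E]

omit [Fintype E] in
/-- Binomial theorem over an interval of finite sets. -/
theorem sum_Icc_pow (s t : Finset E) (h : s ⊆ t) (a b : ℝ) :
    ∑ K ∈ Finset.Icc s t, a ^ (K.card - s.card) * b ^ (t.card - K.card)
      = (a + b) ^ (t.card - s.card) := by
  rw [Finset.Icc_eq_image_powerset h, Finset.sum_image]
  · rw [← Finset.card_sdiff_of_subset h, ← Finset.sum_pow_mul_eq_add_pow a b (t \ s)]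
    apply Finset.sum_congr rfl
    intro J hJ
    rw [Finset.mem_powerset] at hJ
    have hdisj : Disjoint s J :=
      Finset.disjoint_of_subset_right hJ Finset.disjoint_sdiff
    have hc1 : (s ∪ J).card = s.card + J.card := Finset.card_union_of_disjoint hdisj
    have hc2 : (t \ s).card = t.card - s.card := Finset.card_sdiff_of_subset h
    have hc3 : J.card ≤ (t \ s).card := Finset.card_le_card hJ
    have hc4 : s.card ≤ t.card := Finset.card_le_card h
    have e1 : (s ∪ J).card - s.card = J.card := by omega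
    have e2 : t.card - (s ∪ J).card = (t \ s).card - J.card := by omega
    rw [e1, e2]
  · intro J1 h1 J2 h2 heq
    have h1' := Finset.mem_powerset.mp (Finset.mem_coe.mp h1)
    have h2' := Finset.mem_powerset.mp (Finset.mem_coe.mp h2)
    have d1 : Disjoint s J1 := Finset.disjoint_of_subset_right h1' Finset.disjoint_sdiff
    have d2 : Disjoint s J2 := Finset.disjoint_of_subset_right h2' Finset.disjoint_sdiff
    have e1 : (s ∪ J1) \ s = J1 := Finset.union_sdiff_cancel_left d1
    have e2 : (s ∪ J2) \ s = J2 := Finset.union_sdiff_cancel_left d2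
    have heq' : s ∪ J1 = s ∪ J2 := heq
    rw [← e1, ← e2, heq']

/-- The probability of containing a fixed set `A` is `p ^ |A|`. -/
theorem sum_superset_weight (A : Finset E) (p : ℝ) :
    ∑ H ∈ Finset.Icc A univ, p ^ H.card * (1 - p) ^ (Fintype.card E - H.card) = p ^ A.card := by
  have h := sum_Icc_pow A univ (Finset.subset_univ A) p (1 - p)
  rw [Finset.card_univ] at h
  have h2 : ∑ H ∈ Finset.Icc A univ, p ^ H.card * (1 - p) ^ (Fintype.card E - H.card)
      = p ^ A.card * ∑ H ∈ Finset.Icc A univ,
          p ^ (H.card - A.card) * (1 - p) ^ (Fintype.card E - H.card) := by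
    rw [Finset.mul_sum]
    apply Finset.sum_congr rfl
    intro H hH
    rw [Finset.mem_Icc] at hH
    have hc : A.card ≤ H.card := Finset.card_le_card hH.1
    rw [← mul_assoc, ← pow_add]
    congr 2
    omega
  rw [h2, h]
  simp

/-- Thinning inequality.  Let `P` be an increasing family in which every member contains a
member with at most `m` elements.  Then `θ^m μ_p(P) ≤ μ_{θ p}(P)` for `θ, p ∈ [0,1]`. -/
theorem thinning (P : Finset (Finset E)) (hinc : IsIncreasing P) (m : ℕ)
    (hgen : ∀ H ∈ P, ∃ M ∈ P, M ⊆ H ∧ M.card ≤ m) (θ p : ℝ)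
    (hθ0 : 0 ≤ θ) (hθ1 : θ ≤ 1) (hp0 : 0 ≤ p) (hp1 : p ≤ 1) :
    θ ^ m * mu p P ≤ mu (θ * p) P := by
  set N := Fintype.card E with hN
  -- Step 1: expand each weight at `θ p` over supersets.
  have step1 : ∀ K : Finset E,
      (θ * p) ^ K.card * (1 - θ * p) ^ (N - K.card)
        = ∑ H ∈ Finset.Icc K univ,
            (p ^ H.card * (1 - p) ^ (N - H.card)) * (θ ^ K.card * (1 - θ) ^ (H.card - K.card)) := by
    intro K
    have h := sum_Icc_pow K univ (Finset.subset_univ K) ((1 - θ) * p) (1 - p)
    rw [Finset.card_univ] at h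
    have e : (1 - θ) * p + (1 - p) = 1 - θ * p := by ring
    rw [e] at h
    rw [← h, Finset.mul_sum]
    apply Finset.sum_congr rfl
    intro H hH
    rw [Finset.mem_Icc] at hH
    have hc : K.card ≤ H.card := Finset.card_le_card hH.1
    have e2 : p ^ H.card = p ^ K.card * p ^ (H.card - K.card) := by
      rw [← pow_add]
      congr 1
      omega
    rw [e2, mul_pow, mul_pow]
    ring
  -- Step 2: swap the order of summation.
  have step2 : mu (θ * p) P
      = ∑ H : Finset E, ∑ K ∈ P.filter (fun K => K ⊆ H),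
          (p ^ H.card * (1 - p) ^ (N - H.card)) * (θ ^ K.card * (1 - θ) ^ (H.card - K.card)) := by
    unfold mu
    rw [Finset.sum_congr rfl (fun K _ => step1 K)]
    apply Finset.sum_comm'
    intro K H
    simp only [Finset.mem_Icc, Finset.mem_filter, Finset.mem_univ, and_true]
    constructor
    · rintro ⟨hK, hKH, _⟩
      exact ⟨hK, hKH⟩
    · rintro ⟨hK, hKH⟩
      exact ⟨hK, hKH, Finset.subset_univ _⟩
  -- Step 3: lower bound for the inner sum when `H ∈ P`.
  have step3 : ∀ H ∈ P, θ ^ m ≤
      ∑ K ∈ P.filter (fun K => K ⊆ H), θ ^ K.card * (1 - θ) ^ (H.card - K.card) := by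
    intro H hH
    obtain ⟨M, hMP, hMH, hMm⟩ := hgen H hH
    have hsub : Finset.Icc M H ⊆ P.filter (fun K => K ⊆ H) := by
      intro K hK
      rw [Finset.mem_Icc] at hK
      rw [Finset.mem_filter]
      exact ⟨hinc M hMP K hK.1, hK.2⟩
    have h1 : ∑ K ∈ Finset.Icc M H, θ ^ K.card * (1 - θ) ^ (H.card - K.card) = θ ^ M.card := by
      have h := sum_Icc_pow M H hMH θ (1 - θ)
      have h2 : ∑ K ∈ Finset.Icc M H, θ ^ K.card * (1 - θ) ^ (H.card - K.card)
          = θ ^ M.card * ∑ K ∈ Finset.Icc M H,
              θ ^ (K.card - M.card) * (1 - θ) ^ (H.card - K.card) := by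
        rw [Finset.mul_sum]
        apply Finset.sum_congr rfl
        intro K hK
        rw [Finset.mem_Icc] at hK
        have hc : M.card ≤ K.card := Finset.card_le_card hK.1
        rw [← mul_assoc, ← pow_add]
        congr 2
        omega
      rw [h2, h]
      simp
    calc θ ^ m ≤ θ ^ M.card := pow_le_pow_of_le_one hθ0 hθ1 hMm
      _ = ∑ K ∈ Finset.Icc M H, θ ^ K.card * (1 - θ) ^ (H.card - K.card) := h1.symm
      _ ≤ _ := Finset.sum_le_sum_of_subset_of_nonneg hsub (fun K _ _ =>
          mul_nonneg (pow_nonneg hθ0 _) (pow_nonneg (by linarith) _))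
  -- Step 4: combine.
  rw [step2]
  have hw : ∀ H : Finset E, 0 ≤ p ^ H.card * (1 - p) ^ (N - H.card) := fun H =>
    mul_nonneg (pow_nonneg hp0 _) (pow_nonneg (by linarith) _)
  calc θ ^ m * mu p P = ∑ H ∈ P, (p ^ H.card * (1 - p) ^ (N - H.card)) * θ ^ m := by
        unfold mu
        rw [Finset.mul_sum]
        apply Finset.sum_congr rfl
        intro H _
        ring
    _ ≤ ∑ H ∈ P, (p ^ H.card * (1 - p) ^ (N - H.card)) *
          ∑ K ∈ P.filter (fun K => K ⊆ H), θ ^ K.card * (1 - θ) ^ (H.card - K.card) :=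
        Finset.sum_le_sum fun H hH => mul_le_mul_of_nonneg_left (step3 H hH) (hw H)
    _ ≤ ∑ H : Finset E, (p ^ H.card * (1 - p) ^ (N - H.card)) *
          ∑ K ∈ P.filter (fun K => K ⊆ H), θ ^ K.card * (1 - θ) ^ (H.card - K.card) :=
        Finset.sum_le_sum_of_subset_of_nonneg (Finset.subset_univ P) (fun H _ _ =>
          mul_nonneg (hw H) (Finset.sum_nonneg fun K _ =>
            mul_nonneg (pow_nonneg hθ0 _) (pow_nonneg (by linarith) _)))
    _ = _ := by
        apply Finset.sum_congr rfl
        intro H _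
        rw [Finset.mul_sum]

end general

end Vale.Agent.Lib.P063
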