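import Vale.Agent.Lib.P063.Thinning

namespace Vale.Agent.Lib.P063

open Finset

section general
variable {E : Type*} [Fintype E] [DecidableEq E]

/-- At `p = 1` the random set is everything. -/
theorem mu_one (P : Finset (Finset E)) (hfull : (univ : Finset E) ∈ P) : mu 1 P = 1 := by
  unfold mu
  rw [Finset.sum_eq_single_of_mem (univ : Finset E) hfull]
  · simp
  · intro H _ hne
    have hlt : H.card < Fintype.card E := by
      rw [← Finset.card_univ]
      exact Finset.card_lt_card (Finset.ssubset_univ_iff.mpr hne)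
    have : Fintype.card E - H.card ≠ 0 := by omega
    simp [this]

/-- If `μ_p(P) < a` for all `p ∈ [0, p0)`, then `p_a(P) ≥ p0`. -/
theorem pcrit_ge (P : Finset (Finset E)) (hfull : (univ : Finset E) ∈ P) (a p0 : ℝ) (ha : a ≤ 1)
    (h : ∀ p : ℝ, 0 ≤ p → p < p0 → mu p P < a) : p0 ≤ pcrit a P := by
  unfold pcrit
  apply le_csInf
  · exact ⟨1, by norm_num, le_refl _, by rw [mu_one P hfull]; exact ha⟩
  · intro q hq
    by_contra hlt
    have := h q hq.1 (lt_of_not_ge hlt)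
    linarith [hq.2.2]

/-- Width lower bound from small generators.  Let `P` be an increasing family containing the
full set, in which every member contains a member with at most `m` elements, and let
`0 < ε < 1/2`, `ρ = ((1-ε)/ε)^(1/m)`.  Then `p_{1-ε}(P) ≥ ρ p_ε(P)`, hence
`w_ε(P) ≥ (ρ - 1) p_ε(P)`. -/
theorem width_ge_of_generated (P : Finset (Finset E)) (hinc : IsIncreasing P)
    (hfull : (univ : Finset E) ∈ P) (m : ℕ) (hm : 1 ≤ m)
    (hgen : ∀ H ∈ P, ∃ M ∈ P, M ⊆ H ∧ M.card ≤ m) (ε : ℝ) (hε : 0 < ε) (hε' : ε < 1 / 2) :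
    (((1 - ε) / ε) ^ (1 / (m : ℝ)) - 1) * pcrit ε P ≤ width ε P := by
  have h1ε : 0 < 1 - ε := by linarith
  set ρ := ((1 - ε) / ε) ^ (1 / (m : ℝ)) with hρ
  have hbase : 1 < (1 - ε) / ε := by
    rw [lt_div_iff₀ hε]
    linarith
  have hmpos : (0 : ℝ) < (m : ℝ) := by exact_mod_cast hm
  have hρ1 : 1 < ρ := Real.one_lt_rpow hbase (by positivity)
  have hρ0 : 0 < ρ := by linarith
  have hρm : ρ ^ m = (1 - ε) / ε := by
    rw [hρ, ← Real.rpow_natCast, ← Real.rpow_mul (by positivity)]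
    rw [one_div, inv_mul_cancel₀ hmpos.ne', Real.rpow_one]
  set θ := ρ⁻¹ with hθ
  have hθ0 : 0 < θ := inv_pos.mpr hρ0
  have hθ1 : θ ≤ 1 := inv_le_one_of_one_le₀ hρ1.le
  have hθm : θ ^ m = ε / (1 - ε) := by
    rw [hθ, inv_pow, hρm, inv_div]
  -- key: p_{1-ε} ≥ ρ p_ε
  have key : ρ * pcrit ε P ≤ pcrit (1 - ε) P := by
    unfold pcrit
    apply le_csInf
    · exact ⟨1, by norm_num, le_refl _, by rw [mu_one P hfull]; linarith⟩
    · intro q hq
      obtain ⟨hq0, hq1, hqμ⟩ := hq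
      have hmem : θ * q ∈ {p : ℝ | 0 ≤ p ∧ p ≤ 1 ∧ ε ≤ mu p P} := by
        refine ⟨by positivity, ?_, ?_⟩
        · calc θ * q ≤ 1 * 1 := mul_le_mul hθ1 hq1 hq0 (by norm_num)
            _ = 1 := by norm_num
        · have hthin := thinning P hinc m hgen θ q hθ0.le hθ1 hq0 hq1
          have : ε ≤ θ ^ m * mu q P := by
            rw [hθm]
            calc ε = ε / (1 - ε) * (1 - ε) := by field_simp
              _ ≤ ε / (1 - ε) * mu q P :=
                mul_le_mul_of_nonneg_left hqμ (by positivity)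
          linarith
      have hbdd : BddBelow {p : ℝ | 0 ≤ p ∧ p ≤ 1 ∧ ε ≤ mu p P} := ⟨0, fun x hx => hx.1⟩
      have hle : sInf {p : ℝ | 0 ≤ p ∧ p ≤ 1 ∧ ε ≤ mu p P} ≤ θ * q := csInf_le hbdd hmem
      calc ρ * sInf {p : ℝ | 0 ≤ p ∧ p ≤ 1 ∧ ε ≤ mu p P} ≤ ρ * (θ * q) :=
            mul_le_mul_of_nonneg_left hle hρ0.le
        _ = q := by
            rw [hθ, ← mul_assoc, mul_inv_cancel₀ hρ0.ne', one_mul]
  unfold width
  linarith

/-- Explicit form: if moreover `μ_p(P) < ε` for all `p ∈ [0, p0)`, then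
`w_ε(P) ≥ p0 · log((1-ε)/ε) / m`. -/
theorem width_ge_explicit (P : Finset (Finset E)) (hinc : IsIncreasing P)
    (hfull : (univ : Finset E) ∈ P) (m : ℕ) (hm : 1 ≤ m)
    (hgen : ∀ H ∈ P, ∃ M ∈ P, M ⊆ H ∧ M.card ≤ m) (ε : ℝ) (hε : 0 < ε) (hε' : ε < 1 / 2)
    (p0 : ℝ) (hp0 : 0 ≤ p0) (hsmall : ∀ p : ℝ, 0 ≤ p → p < p0 → mu p P < ε) :
    p0 * Real.log ((1 - ε) / ε) / (m : ℝ) ≤ width ε P := by
  have h1 := width_ge_of_generated P hinc hfull m hm hgen ε hε hε'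
  have h2 := pcrit_ge P hfull ε p0 (by linarith) hsmall
  have hmpos : (0 : ℝ) < (m : ℝ) := by exact_mod_cast hm
  have hbase : 1 < (1 - ε) / ε := by
    rw [lt_div_iff₀ hε]
    linarith
  have hbpos : 0 < (1 - ε) / ε := by linarith
  have hlog : 0 < Real.log ((1 - ε) / ε) := Real.log_pos hbase
  have h3 : Real.log ((1 - ε) / ε) / (m : ℝ) ≤ ((1 - ε) / ε) ^ (1 / (m : ℝ)) - 1 := by
    rw [Real.rpow_def_of_pos hbpos]
    have := Real.add_one_le_exp (Real.log ((1 - ε) / ε) * (1 / (m : ℝ)))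
    have e : Real.log ((1 - ε) / ε) * (1 / (m : ℝ)) = Real.log ((1 - ε) / ε) / (m : ℝ) := by
      ring
    rw [e] at this ⊢
    linarith
  have h4 : 0 ≤ Real.log ((1 - ε) / ε) / (m : ℝ) := by positivity
  calc p0 * Real.log ((1 - ε) / ε) / (m : ℝ)
      = (Real.log ((1 - ε) / ε) / (m : ℝ)) * p0 := by ring
    _ ≤ (Real.log ((1 - ε) / ε) / (m : ℝ)) * pcrit ε P := mul_le_mul_of_nonneg_left h2 h4
    _ ≤ (((1 - ε) / ε) ^ (1 / (m : ℝ)) - 1) * pcrit ε P :=
        mul_le_mul_of_nonneg_right h3 (le_trans hp0 h2)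
    _ ≤ width ε P := h1

end general

end Vale.Agent.Lib.P063
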